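import Vale.Agent.P233.H636.Dim
import Vale.Agent.P233.Bd3.B10

/-!
# P233, part G: shape of the final statement

`IsAlexN M n κ` is condition (A) and `IsSecN M n κ` is condition (B) of the problem file;
`final_of` turns the implication from (B) to the comparison part of (A) into the statement of
the hand-in.
-/

open MeasureTheory Metric Set
open scoped ENNReal NNReal

universe u

namespace Vale.Agent.P233.T

/-- (A): `M` is an `n`-dimensional Alexandrov space with curvature `≥ κ`. -/
def IsAlexN (M : Type u) [MetricSpace M] (n : ℕ) (κ : ℝ) : Prop :=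
  IsAlexandrov M κ ∧ dimH (univ : Set M) = n

/-- (B): `ℋⁿ` has full support, `(M, d, ℋⁿ)` is `RCD((n - 1) κ, n)` and has distributional
sectional curvature `≥ κ`. -/
def IsSecN (M : Type u) [MetricSpace M] [MeasurableSpace M] [BorelSpace M] (n : ℕ) (κ : ℝ) :
    Prop :=
  (Measure.hausdorffMeasure (n : ℝ) : Measure M).IsOpenPosMeasure ∧
    IsRCD (Measure.hausdorffMeasure (n : ℝ) : Measure M) ((n - 1) * κ) n ∧
    DistSecGE (sob (Measure.hausdorffMeasure (n : ℝ) : Measure M)) κ

end Vale.Agent.P233.T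

namespace Vale.Agent.P233.H636

variable {M : Type u} [MetricSpace M] [MeasurableSpace M] [BorelSpace M]

theorem nonempty_of_isRCD {m : Measure M} {K N : ℝ} (h : T.IsRCD m K N) : Nonempty M :=
  let ⟨x, _⟩ := h.growth
  ⟨x⟩

theorem ball_finite_of_isRCD {m : Measure M} {K N : ℝ} (h : T.IsRCD m K N) (x : M) (r : ℝ) :
    m (ball x r) < ∞ := by
  obtain ⟨x₀, c, hc⟩ := h.growth
  have h1 : ball x r ⊆ ball x₀ (|r| + dist x x₀ + 1) := by
    intro y hy
    rw [mem_ball] at hy ⊢
    have := dist_triangle y x x₀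
    have := le_abs_self r
    linarith
  have h2 : 0 < |r| + dist x x₀ + 1 := by positivity
  exact (measure_mono h1).trans_lt ((hc _ h2).trans_lt ENNReal.ofReal_lt_top)

/-- (B) forces the Hausdorff dimension to be `n`. -/
theorem dimH_of_isSecN [SecondCountableTopology M] {n : ℕ} {κ : ℝ} (h : T.IsSecN M n κ) :
    dimH (univ : Set M) = n := by
  obtain ⟨h1, h2, -⟩ := h
  haveI := h1
  haveI := nonempty_of_isRCD h2
  refine dimH_univ_eq (fun x r hr => ?_) (fun x => ⟨1, one_pos, ball_finite_of_isRCD h2 x 1⟩)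
  exact (isOpen_ball.measure_pos _ ⟨x, mem_ball_self hr⟩).ne'

/-- The final assembly: the comparison part of (B) ⇒ (A) gives (B) ⇒ (A), and (A) ⇒ (B) holds up
to the known theorem that (A) implies that `ℋⁿ` has full support and is `RCD((n - 1) κ, n)`. -/
theorem final_of [CompleteSpace M] [SecondCountableTopology M] {n : ℕ} (hn : 2 ≤ n) {κ : ℝ}
    (hBA : T.IsSecN M n κ → T.IsAlexandrov M κ) :
    (T.IsSecN M n κ → T.IsAlexN M n κ) ∧
      (T.IsAlexN M n κ → (Measure.hausdorffMeasure (n : ℝ) : Measure M).IsOpenPosMeasure →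
        T.IsRCD (Measure.hausdorffMeasure (n : ℝ) : Measure M) ((n - 1) * κ) n → T.IsSecN M n κ) := by
  refine ⟨fun h => ⟨hBA h, dimH_of_isSecN h⟩, fun hA h1 h2 => ⟨h1, h2, ?_⟩⟩
  haveI := h1
  have hN : (0 : ℝ) < n := by exact_mod_cast (by omega : 0 < n)
  exact ab_T _ hN hA.1 h2

/-- Equivalent form: on spaces for which `ℋⁿ` has full support and is `RCD((n - 1) κ, n)`, the
conditions (A) and (B) are equivalent, and (B) implies (A) on all spaces. -/
theorem final_iff [CompleteSpace M] [SecondCountableTopology M] {n : ℕ} (hn : 2 ≤ n) {κ : ℝ}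
    (hBA : T.IsSecN M n κ → T.IsAlexandrov M κ) :
    T.IsSecN M n κ ↔ (T.IsAlexN M n κ ∧
      (Measure.hausdorffMeasure (n : ℝ) : Measure M).IsOpenPosMeasure ∧
      T.IsRCD (Measure.hausdorffMeasure (n : ℝ) : Measure M) ((n - 1) * κ) n) :=
  ⟨fun h => ⟨(final_of hn hBA).1 h, h.1, h.2.1⟩, fun h => (final_of hn hBA).2 h.1 h.2.1 h.2.2⟩

end Vale.Agent.P233.H636
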