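import Mathlib.Topology.MetricSpace.HausdorffDimension
import Mathlib.Tactic

/-!
# P233, part G: the Hausdorff dimension

If `ℋⁿ` is positive on nonempty open sets and finite on balls, then the Hausdorff dimension of a
nonempty separable metric space is `n` (also for every nonempty open subset).
-/

open MeasureTheory Metric Set
open scoped ENNReal NNReal

namespace Vale.Agent.P233.H636

variable {M : Type*} [MetricSpace M] [MeasurableSpace M] [BorelSpace M]

theorem dimH_le_of_finite_ball [SecondCountableTopology M] {d : ℝ≥0}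
    (hfin : ∀ x : M, ∃ r > 0, Measure.hausdorffMeasure (d : ℝ) (ball x r) < ∞) (s : Set M) :
    dimH s ≤ d := by
  choose r hr hf using hfin
  obtain ⟨t, ht, hcov⟩ := TopologicalSpace.isOpen_iUnion_countable (fun x => ball x (r x))
    (fun x => isOpen_ball)
  have huniv : (univ : Set M) = ⋃ x ∈ t, ball x (r x) := by
    rw [hcov]
    refine (eq_univ_of_forall fun x => ?_).symm
    exact mem_iUnion.2 ⟨x, mem_ball_self (hr x)⟩
  refine (dimH_mono (subset_univ s)).trans ?_
  rw [huniv, dimH_bUnion ht]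
  refine iSup₂_le fun x _ => ?_
  exact dimH_le_of_hausdorffMeasure_ne_top (hf x).ne

theorem le_dimH_of_isOpen {d : ℝ≥0}
    (hpos : ∀ x : M, ∀ r > 0, Measure.hausdorffMeasure (d : ℝ) (ball x r) ≠ 0)
    {s : Set M} (hs : IsOpen s) (hne : s.Nonempty) : (d : ℝ≥0∞) ≤ dimH s := by
  obtain ⟨x, hx⟩ := hne
  obtain ⟨r, hr, hsub⟩ := Metric.isOpen_iff.1 hs x hx
  exact (le_dimH_of_hausdorffMeasure_ne_zero (hpos x r hr)).trans (dimH_mono hsub)

/-- The dimension of a space whose measure `ℋⁿ` has full support and is finite on balls. -/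
theorem dimH_univ_eq [SecondCountableTopology M] [Nonempty M] {n : ℕ}
    (hpos : ∀ x : M, ∀ r > 0, Measure.hausdorffMeasure (n : ℝ) (ball x r) ≠ 0)
    (hfin : ∀ x : M, ∃ r > 0, Measure.hausdorffMeasure (n : ℝ) (ball x r) < ∞) :
    dimH (univ : Set M) = n := by
  have h1 : ((n : ℝ≥0) : ℝ) = (n : ℝ) := by simp
  refine le_antisymm ?_ ?_
  · exact_mod_cast dimH_le_of_finite_ball (d := (n : ℝ≥0)) (by simpa [h1] using hfin) univ
  · exact_mod_cast le_dimH_of_isOpen (d := (n : ℝ≥0)) (by simpa [h1] using hpos) isOpen_univ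
      univ_nonempty

end Vale.Agent.P233.H636
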